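import Mathlib

open Finset

namespace Vale.Agent.Lib.P037.Two

variable {n : ℕ}

/-- Number of entries equal to `a` strictly before the threshold `p`. -/
def lo (a : Bool) (f : Fin n → Bool) (p : ℕ) : ℕ :=
  (univ.filter (fun c : Fin n => c.val < p ∧ f c = a)).card

/-- Number of entries equal to `b` at or after the threshold `p`. -/
def hi (b : Bool) (f : Fin n → Bool) (p : ℕ) : ℕ :=
  (univ.filter (fun c : Fin n => p ≤ c.val ∧ f c = b)).card

/-- Number of pairs `c < c'` with entries `a`, `b`. -/
def rowInv (a b : Bool) (f : Fin n → Bool) : ℕ :=
  (univ.filter (fun q : Fin n × Fin n => q.1 < q.2 ∧ f q.1 = a ∧ f q.2 = b)).card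

theorem lo_zero (a : Bool) (f : Fin n → Bool) : lo a f 0 = 0 := by
  unfold lo
  simp

theorem hi_top (b : Bool) (f : Fin n → Bool) : hi b f n = 0 := by
  unfold hi
  apply Finset.card_eq_zero.mpr
  apply Finset.eq_empty_of_forall_notMem
  intro c hc
  have := (Finset.mem_filter.mp hc).2.1
  omega

/-- The slice of one index. -/
theorem card_slice_le (p : ℕ) : (univ.filter (fun c : Fin n => c.val = p)).card ≤ 1 := by
  apply Finset.card_le_one.mpr
  intro x hx y hy
  have h1 := (Finset.mem_filter.mp hx).2
  have h2 := (Finset.mem_filter.mp hy).2
  exact Fin.ext (h1.trans h2.symm)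

theorem lo_succ (a : Bool) (f : Fin n → Bool) (p : ℕ) : lo a f (p + 1) ≤ lo a f p + 1 := by
  unfold lo
  calc _ ≤ ((univ.filter (fun c : Fin n => c.val < p ∧ f c = a)) ∪
        (univ.filter (fun c : Fin n => c.val = p))).card := by
        apply Finset.card_le_card
        intro c hc
        have h1 := (Finset.mem_filter.mp hc).2
        simp only [mem_union, mem_filter, mem_univ, true_and]
        by_cases h : c.val = p
        · exact Or.inr h
        · exact Or.inl ⟨by omega, h1.2⟩
    _ ≤ _ := (Finset.card_union_le _ _).trans (Nat.add_le_add_left (card_slice_le p) _)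

theorem hi_succ (b : Bool) (f : Fin n → Bool) (p : ℕ) : hi b f p ≤ hi b f (p + 1) + 1 := by
  unfold hi
  calc _ ≤ ((univ.filter (fun c : Fin n => p + 1 ≤ c.val ∧ f c = b)) ∪
        (univ.filter (fun c : Fin n => c.val = p))).card := by
        apply Finset.card_le_card
        intro c hc
        have h1 := (Finset.mem_filter.mp hc).2
        simp only [mem_union, mem_filter, mem_univ, true_and]
        by_cases h : c.val = p
        · exact Or.inr h
        · exact Or.inl ⟨by omega, h1.2⟩
    _ ≤ _ := (Finset.card_union_le _ _).trans (Nat.add_le_add_left (card_slice_le p) _)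

/-- For different letters one step changes only one of the two counts. -/
theorem lo_hi_succ {a b : Bool} (hab : a ≠ b) (f : Fin n → Bool) (p : ℕ) :
    lo a f (p + 1) + hi b f p ≤ lo a f p + hi b f (p + 1) + 1 := by
  unfold lo hi
  have hd1 : Disjoint (univ.filter (fun c : Fin n => c.val < p + 1 ∧ f c = a))
      (univ.filter (fun c : Fin n => p ≤ c.val ∧ f c = b)) := by
    rw [Finset.disjoint_left]
    intro c h1 h2
    have h3 := (Finset.mem_filter.mp h1).2.2
    have h4 := (Finset.mem_filter.mp h2).2.2
    exact hab (h3.symm.trans h4)
  rw [← Finset.card_union_of_disjoint hd1]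
  calc _ ≤ ((univ.filter (fun c : Fin n => c.val < p ∧ f c = a)) ∪
        (univ.filter (fun c : Fin n => p + 1 ≤ c.val ∧ f c = b)) ∪
        (univ.filter (fun c : Fin n => c.val = p))).card := by
        apply Finset.card_le_card
        intro c hc
        simp only [mem_union, mem_filter, mem_univ, true_and] at hc ⊢
        by_cases h : c.val = p
        · exact Or.inr h
        · left
          rcases hc with hc | hc
          · exact Or.inl ⟨by omega, hc.2⟩
          · exact Or.inr ⟨by omega, hc.2⟩
    _ ≤ _ := by
        refine (Finset.card_union_le _ _).trans ?_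
        have h1 := Finset.card_union_le (univ.filter (fun c : Fin n => c.val < p ∧ f c = a))
          (univ.filter (fun c : Fin n => p + 1 ≤ c.val ∧ f c = b))
        have h2 := card_slice_le (n := n) p
        omega

/-- A balanced threshold. -/
theorem exists_balanced (a b : Bool) (f : Fin n → Bool) (p : ℕ) (hp : hi b f p ≤ lo a f p) :
    ∃ q, hi b f q ≤ lo a f q ∧ lo a f q ≤ hi b f q + 1 ∧ (a ≠ b → lo a f q = hi b f q) := by
  induction p with
  | zero =>
    refine ⟨0, hp, ?_, ?_⟩
    · rw [lo_zero]; omega
    · intro _
      rw [lo_zero] at hp ⊢
      omega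
  | succ p ih =>
    by_cases h : hi b f p ≤ lo a f p
    · exact ih h
    · push Not at h
      refine ⟨p + 1, hp, ?_, ?_⟩
      · have h1 := lo_succ a f p
        have h2 := hi_succ b f p
        omega
      · intro hab
        have h1 := lo_hi_succ hab f p
        omega

theorem lo_mul_hi_le (a b : Bool) (f : Fin n → Bool) (q : ℕ) :
    lo a f q * hi b f q ≤ rowInv a b f := by
  unfold lo hi rowInv
  rw [← Finset.card_product]
  apply Finset.card_le_card
  intro x hx
  obtain ⟨h1, h2⟩ := Finset.mem_product.mp hx
  have h3 := (Finset.mem_filter.mp h1).2
  have h4 := (Finset.mem_filter.mp h2).2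
  simp only [mem_filter, mem_univ, true_and]
  refine ⟨?_, h3.2, h4.2⟩
  rw [Fin.lt_def]
  omega

/-- The row lemma: a row can be made free of the pair `(a, b)` at a small cost. -/
theorem row_lemma (a b : Bool) (f : Fin n → Bool) :
    ∃ g : Fin n → Bool, (∀ c c', c < c' → ¬ (g c = a ∧ g c' = b)) ∧
      ((univ.filter (fun c => f c ≠ g c)).card) ^ 2 ≤ 4 * rowInv a b f := by
  obtain ⟨q, h1, h2, h3⟩ := exists_balanced a b f n (by rw [hi_top]; omega)
  have hinv := lo_mul_hi_le a b f q
  by_cases hab : a = b
  · subst hab
    by_cases hS : ∃ c₀, f c₀ = a
    · obtain ⟨c₀, hc₀⟩ := hS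
      refine ⟨fun c => if c = c₀ then a else !a, ?_, ?_⟩
      · rintro c c' hlt ⟨h4, h5⟩
        have h6 : c = c₀ := by
          by_contra hne
          simp only [hne, if_false] at h4
          cases a <;> simp at h4
        have h7 : c' = c₀ := by
          by_contra hne
          simp only [hne, if_false] at h5
          cases a <;> simp at h5
        rw [h6, h7] at hlt
        exact lt_irrefl _ hlt
      · have hcard : (univ.filter (fun c => f c ≠ (if c = c₀ then a else !a))).card + 1 ≤
            lo a f q + hi a f q := by
          unfold lo hi
          rw [← Finset.card_union_of_disjoint (by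
            rw [Finset.disjoint_left]
            intro c h4 h5
            have h6 := (Finset.mem_filter.mp h4).2.1
            have h7 := (Finset.mem_filter.mp h5).2.1
            omega)]
          have hnot : c₀ ∉ (univ.filter (fun c => f c ≠ (if c = c₀ then a else !a))) := by
            simp [hc₀]
          rw [← Finset.card_insert_of_notMem hnot]
          apply Finset.card_le_card
          intro c hc
          simp only [mem_insert, mem_filter, mem_univ, true_and, mem_union] at hc ⊢
          have hfa : f c = a := by
            rcases hc with rfl | hc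
            · exact hc₀
            · by_cases hcc : c = c₀
              · rw [hcc]; exact hc₀
              · simp only [hcc, if_false] at hc
                cases hfc : f c <;> cases a <;> simp_all
          by_cases hlt : c.val < q
          · exact Or.inl ⟨hlt, hfa⟩
          · exact Or.inr ⟨by omega, hfa⟩
        generalize (univ.filter (fun c => f c ≠ (if c = c₀ then a else !a))).card = d at hcard ⊢
        have hd : d ≤ 2 * hi a f q := by omega
        have hhh : hi a f q * hi a f q ≤ lo a f q * hi a f q := Nat.mul_le_mul_right _ h1
        nlinarith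
    · push Not at hS
      refine ⟨f, ?_, ?_⟩
      · rintro c c' _ ⟨h4, _⟩
        exact hS c h4
      · simp
  · have h4 := h3 hab
    refine ⟨fun c => if c.val < q then b else a, ?_, ?_⟩
    · rintro c c' hlt ⟨h5, h6⟩
      have h7 : ¬ c.val < q := by
        intro hc
        simp only [hc, if_true] at h5
        exact hab h5.symm
      have h8 : c'.val < q := by
        by_contra hc
        simp only [hc, if_false] at h6
        exact hab h6
      rw [Fin.lt_def] at hlt
      omega
    · have hcard : (univ.filter (fun c => f c ≠ (if c.val < q then b else a))).card ≤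
          lo a f q + hi b f q := by
        unfold lo hi
        refine le_trans (Finset.card_le_card ?_) (Finset.card_union_le _ _)
        intro c hc
        simp only [mem_filter, mem_univ, true_and, mem_union] at hc ⊢
        by_cases hlt : c.val < q
        · left
          simp only [hlt, if_true] at hc
          refine ⟨hlt, ?_⟩
          cases hfc : f c <;> cases a <;> cases b <;> simp_all
        · right
          simp only [hlt, if_false] at hc
          refine ⟨by omega, ?_⟩
          cases hfc : f c <;> cases a <;> cases b <;> simp_all
      generalize (univ.filter (fun c => f c ≠ (if c.val < q then b else a))).card = d at hcard ⊢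
      rw [h4] at hinv hcard
      have hd : d ≤ 2 * hi b f q := by omega
      nlinarith

end Vale.Agent.Lib.P037.Two
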