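import Vale.Agent.Lib.P037.Two.Symm
import Vale.Agent.Lib.P037.Two.RowLemma

open Finset

namespace Vale.Agent.Lib.P037.Two

open Vale.Agent.Results.P037.DiagonalRemoval

variable {n : ℕ}

/-- The pattern `[[a,b],[a,b]]`. -/
def eqRowsPat (a b : Bool) : Fin 2 → Fin 2 → Bool := fun _ j => if j = 0 then a else b

/-- Rows having `a`, `b` at the columns `q.1 < q.2`. -/
def DD (A : Fin n → Fin n → Bool) (a b : Bool) (q : Fin n × Fin n) : Finset (Fin n) :=
  univ.filter (fun r => q.1 < q.2 ∧ A r q.1 = a ∧ A r q.2 = b)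

/-- Pairs of rows `r < r'` in `DD`. -/
def PP (A : Fin n → Fin n → Bool) (a b : Bool) (q : Fin n × Fin n) : Finset (Fin n × Fin n) :=
  univ.filter (fun p => p.1 < p.2 ∧ p.1 ∈ DD A a b q ∧ p.2 ∈ DD A a b q)

theorem sum_rowInv (A : Fin n → Fin n → Bool) (a b : Bool) :
    ∑ r, rowInv a b (A r) = ∑ q, (DD A a b q).card := by
  unfold rowInv DD
  simp only [Finset.card_filter]
  exact Finset.sum_comm

theorem card_sq_le (A : Fin n → Fin n → Bool) (a b : Bool) (q : Fin n × Fin n) :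
    (DD A a b q).card ^ 2 ≤ 2 * (PP A a b q).card + (DD A a b q).card := by
  classical
  set D := DD A a b q with hD
  have h1 : D.card ^ 2 = (D ×ˢ D).card := by
    rw [Finset.card_product, sq]
  rw [h1]
  have hsub : D ×ˢ D ⊆ PP A a b q ∪ (PP A a b q).image (fun p => (p.2, p.1)) ∪
      D.image (fun r => (r, r)) := by
    intro p hp
    obtain ⟨h2, h3⟩ := Finset.mem_product.mp hp
    simp only [mem_union, mem_image]
    rcases lt_trichotomy p.1 p.2 with h | h | h
    · left; left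
      unfold PP
      simp only [mem_filter, mem_univ, true_and]
      exact ⟨h, h2, h3⟩
    · right
      exact ⟨p.1, h2, Prod.ext rfl h⟩
    · left; right
      refine ⟨(p.2, p.1), ?_, rfl⟩
      unfold PP
      simp only [mem_filter, mem_univ, true_and]
      exact ⟨h, h3, h2⟩
  have h4 := Finset.card_le_card hsub
  have h5 := Finset.card_union_le (PP A a b q ∪ (PP A a b q).image (fun p => (p.2, p.1)))
    (D.image (fun r => (r, r)))
  have h6 := Finset.card_union_le (PP A a b q) ((PP A a b q).image (fun p => (p.2, p.1)))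
  have h7 : ((PP A a b q).image (fun p => (p.2, p.1))).card ≤ (PP A a b q).card :=
    Finset.card_image_le
  have h8 : (D.image (fun r => (r, r))).card ≤ D.card := Finset.card_image_le
  omega

theorem sum_PP_le (A : Fin n → Fin n → Bool) (a b : Bool) :
    ∑ q, (PP A a b q).card ≤ countCopies (eqRowsPat a b) A := by
  classical
  rw [← Finset.card_sigma]
  unfold countCopies
  apply Finset.card_le_card_of_injOn
    (fun x => ((![x.2.1, x.2.2] : Fin 2 → Fin n), (![x.1.1, x.1.2] : Fin 2 → Fin n)))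
  · intro x hx
    have hx' := Finset.mem_coe.mp hx
    obtain ⟨_, h2⟩ := Finset.mem_sigma.mp hx'
    unfold PP at h2
    obtain ⟨_, h3, h4, h5⟩ := Finset.mem_filter.mp h2
    unfold DD at h4 h5
    obtain ⟨_, h6, h7, h8⟩ := Finset.mem_filter.mp h4
    obtain ⟨_, _, h9, h10⟩ := Finset.mem_filter.mp h5
    apply Finset.mem_coe.mpr
    rw [mem_copies]
    refine ⟨?_, ?_, ?_⟩
    · intro i j hij
      fin_cases i <;> fin_cases j <;> simp_all
    · intro i j hij
      fin_cases i <;> fin_cases j <;> simp_all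
    · intro i j
      fin_cases i <;> fin_cases j <;> simp_all [eqRowsPat]
  · intro x _ y _ h
    have h1 := congrArg (fun z => z.1 0) h
    have h2 := congrArg (fun z => z.1 1) h
    have h3 := congrArg (fun z => z.2 0) h
    have h4 := congrArg (fun z => z.2 1) h
    simp only [Matrix.cons_val_zero, Matrix.cons_val_one] at h1 h2 h3 h4
    have e1 : x.1 = y.1 := Prod.ext h3 h4
    obtain ⟨x1, x2⟩ := x
    obtain ⟨y1, y2⟩ := y
    simp only at e1 h1 h2
    subst e1
    have e2 : x2 = y2 := Prod.ext h1 h2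
    subst e2
    rfl

/-- Cauchy-Schwarz in natural numbers. -/
theorem T_sq_le (A : Fin n → Fin n → Bool) (a b : Bool) :
    (∑ r, rowInv a b (A r)) ^ 2 ≤
      n ^ 2 * (2 * (∑ q, (PP A a b q).card) + ∑ r, rowInv a b (A r)) := by
  rw [sum_rowInv]
  have h1 := sq_sum_le_card_mul_sum_sq (s := (univ : Finset (Fin n × Fin n)))
    (f := fun q => (DD A a b q).card)
  have h2 : (univ : Finset (Fin n × Fin n)).card = n ^ 2 := by
    simp [sq]
  rw [h2] at h1
  refine h1.trans (Nat.mul_le_mul_left _ ?_)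
  calc ∑ q, (DD A a b q).card ^ 2 ≤ ∑ q, (2 * (PP A a b q).card + (DD A a b q).card) :=
        Finset.sum_le_sum (fun q _ => card_sq_le A a b q)
    _ = _ := by
        rw [Finset.sum_add_distrib, Finset.mul_sum]

theorem diffCount_eq_sum' (A B : Fin n → Fin n → Bool) :
    diffCount A B = ∑ r, (univ.filter (fun c => A r c ≠ B r c)).card := by
  unfold diffCount
  rw [Finset.card_filter]
  rw [Fintype.sum_prod_type]
  apply Finset.sum_congr rfl
  intro r _
  rw [Finset.card_filter]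

theorem real_ineq {x e T N : ℝ} (hx : 1 ≤ x) (he0 : 0 < e) (he1 : e < 1) (hT0 : 0 ≤ T) (hN : 1 ≤ N)
    (H1 : (e * (x * x)) ^ 2 ≤ x * (4 * T)) (H2 : T ^ 2 ≤ x ^ 2 * (2 * N + T)) :
    e ^ 8 * x ^ 4 ≤ 4096 * N := by
  have hx0 : 0 < x := by linarith
  have H3 : e ^ 2 * x ^ 3 ≤ 4 * T := by
    have e1 : (e * (x * x)) ^ 2 = x * (e ^ 2 * x ^ 3) := by ring
    rw [e1] at H1
    exact le_of_mul_le_mul_left H1 hx0
  have he2 : 0 < e ^ 2 := by positivity
  have he4 : 0 < e ^ 4 := by positivity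
  by_cases hc : T ≤ 2 * x ^ 2
  · have h1 : e ^ 2 * x ^ 3 ≤ 8 * x ^ 2 := by linarith
    have h2 : e ^ 2 * x ≤ 8 := by
      have e1 : e ^ 2 * x ^ 3 = x ^ 2 * (e ^ 2 * x) := by ring
      have e2 : 8 * x ^ 2 = x ^ 2 * 8 := by ring
      rw [e1, e2] at h1
      exact le_of_mul_le_mul_left h1 (by positivity)
    have h3 : (e ^ 2 * x) ^ 4 ≤ 8 ^ 4 := pow_le_pow_left₀ (by positivity) h2 4
    have e1 : (e ^ 2 * x) ^ 4 = e ^ 8 * x ^ 4 := by ring
    rw [e1] at h3
    linarith
  · push Not at hc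
    have hx2 : 0 < x ^ 2 := by positivity
    have h1 : x ^ 2 * T ≤ T ^ 2 / 2 := by nlinarith
    have h2 : T ^ 2 ≤ 4 * (x ^ 2 * N) := by nlinarith
    have h3 : (e ^ 2 * x ^ 3) ^ 2 ≤ (4 * T) ^ 2 := pow_le_pow_left₀ (by positivity) H3 2
    have h4 : e ^ 4 * x ^ 6 ≤ 256 * (x ^ 2 * N) := by nlinarith
    have h5 : e ^ 4 * x ^ 4 ≤ 256 * N := by
      have e1 : e ^ 4 * x ^ 6 = x ^ 2 * (e ^ 4 * x ^ 4) := by ring
      have e2 : 256 * (x ^ 2 * N) = x ^ 2 * (256 * N) := by ring
      rw [e1, e2] at h4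
      exact le_of_mul_le_mul_left h4 hx2
    have h6 : e ^ 8 ≤ e ^ 4 := pow_le_pow_of_le_one he0.le he1.le (by norm_num)
    have h7 : 0 < x ^ 4 := by positivity
    have h8 : e ^ 8 * x ^ 4 ≤ e ^ 4 * x ^ 4 := mul_le_mul_of_nonneg_right h6 h7.le
    linarith

/-- The removal bound for the patterns with two equal rows. -/
theorem eqRows_bound (a b : Bool) (hn : 0 < n) {ε : ℝ} (h0 : 0 < ε) (h1 : ε < 1)
    (A : Fin n → Fin n → Bool)
    (hfar : ∀ B : Fin n → Fin n → Bool, countCopies (eqRowsPat a b) B = 0 →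
      ε * ((n : ℝ) * n) ≤ (diffCount A B : ℝ)) :
    ε ^ 8 * (n : ℝ) ^ 4 ≤ 4096 * (countCopies (eqRowsPat a b) A : ℝ) := by
  classical
  have hnR : (1 : ℝ) ≤ (n : ℝ) := by exact_mod_cast hn
  choose g hg1 hg2 using fun r => row_lemma a b (A r)
  have hfree : countCopies (eqRowsPat a b) (fun r => g r) = 0 := by
    unfold countCopies
    apply Finset.card_eq_zero.mpr
    apply Finset.eq_empty_of_forall_notMem
    intro p hp
    rw [mem_copies] at hp
    obtain ⟨_, h2, h3⟩ := hp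
    apply hg1 (p.1 0) (p.2 0) (p.2 1) (h2 (by simp))
    exact ⟨h3 0 0, h3 0 1⟩
  have hfar1 := hfar _ hfree
  rw [diffCount_eq_sum'] at hfar1
  set T := ∑ r, rowInv a b (A r) with hT
  -- first inequality
  have H1 : (ε * ((n : ℝ) * n)) ^ 2 ≤ (n : ℝ) * (4 * (T : ℝ)) := by
    have h2 : (∑ r, (univ.filter (fun c => A r c ≠ g r c)).card) ^ 2 ≤
        n * ∑ r, ((univ.filter (fun c => A r c ≠ g r c)).card) ^ 2 := by
      have := sq_sum_le_card_mul_sum_sq (s := (univ : Finset (Fin n)))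
        (f := fun r => (univ.filter (fun c => A r c ≠ g r c)).card)
      simpa using this
    have h3 : ∑ r, ((univ.filter (fun c => A r c ≠ g r c)).card) ^ 2 ≤ 4 * T := by
      rw [hT, Finset.mul_sum]
      exact Finset.sum_le_sum (fun r _ => hg2 r)
    have h4 : (∑ r, (univ.filter (fun c => A r c ≠ g r c)).card) ^ 2 ≤ n * (4 * T) :=
      h2.trans (Nat.mul_le_mul_left _ h3)
    have h5 : (((∑ r, (univ.filter (fun c => A r c ≠ g r c)).card : ℕ) : ℝ)) ^ 2 ≤
        (n : ℝ) * (4 * (T : ℝ)) := by exact_mod_cast h4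
    have h6 : (ε * ((n : ℝ) * n)) ^ 2 ≤
        (((∑ r, (univ.filter (fun c => A r c ≠ g r c)).card : ℕ) : ℝ)) ^ 2 :=
      pow_le_pow_left₀ (by positivity) hfar1 2
    exact h6.trans h5
  have H2 : (T : ℝ) ^ 2 ≤ (n : ℝ) ^ 2 *
      (2 * ((∑ q, (PP A a b q).card : ℕ) : ℝ) + (T : ℝ)) := by
    have := T_sq_le A a b
    exact_mod_cast this
  -- the copy count is positive
  have hpos : 1 ≤ ∑ q, (PP A a b q).card := by
    by_contra hcon
    have hzero : ∑ q, (PP A a b q).card = 0 := by omega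
    rw [hzero] at H2
    have hT0 : (0 : ℝ) ≤ (T : ℝ) := Nat.cast_nonneg _
    -- then every pair of rows avoids copies, so `A` itself is free
    have hfreeA : countCopies (eqRowsPat a b) A = 0 := by
      unfold countCopies
      apply Finset.card_eq_zero.mpr
      apply Finset.eq_empty_of_forall_notMem
      intro p hp
      rw [mem_copies] at hp
      obtain ⟨h2, h3, h4⟩ := hp
      have hq := (Finset.sum_eq_zero_iff.mp hzero) (p.2 0, p.2 1) (Finset.mem_univ _)
      have hq2 := Finset.card_eq_zero.mp hq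
      have hmem : (p.1 0, p.1 1) ∈ PP A a b (p.2 0, p.2 1) := by
        unfold PP DD
        simp only [mem_filter, mem_univ, true_and]
        have hlt : p.2 0 < p.2 1 := h3 (by simp)
        refine ⟨h2 (by simp), ⟨hlt, h4 0 0, h4 0 1⟩, ⟨hlt, h4 1 0, h4 1 1⟩⟩
      rw [hq2] at hmem
      simp at hmem
    have h2 := hfar A hfreeA
    have h3 : diffCount A A = 0 := by
      unfold diffCount
      simp
    rw [h3] at h2
    have h4 : 0 < ε * ((n : ℝ) * n) := by positivity
    simp at h2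
    linarith
  have hposR : (1 : ℝ) ≤ ((∑ q, (PP A a b q).card : ℕ) : ℝ) := by exact_mod_cast hpos
  have key := real_ineq hnR h0 h1 (Nat.cast_nonneg T) hposR H1 H2
  have hle : ((∑ q, (PP A a b q).card : ℕ) : ℝ) ≤ (countCopies (eqRowsPat a b) A : ℝ) := by
    exact_mod_cast sum_PP_le A a b
  linarith

theorem removal_eqRows (a b : Bool) : Removal (eqRowsPat a b) := by
  intro n hn ε h0 h1 A hfar
  have h2 := eqRows_bound a b hn h0 h1 A hfar
  have hn4 : (n : ℝ) ^ (2 * 2) = (n : ℝ) ^ 4 := by norm_num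
  rw [hn4]
  have h3 : (ε / 14) ^ 234 ≤ ε ^ 8 / 4096 := by
    have e1 : (ε / 14) ^ 234 = ε ^ 234 / 14 ^ 234 := div_pow _ _ _
    rw [e1]
    apply div_le_div₀ (by positivity) _ (by positivity) (by norm_num)
    exact pow_le_pow_of_le_one h0.le h1.le (by norm_num)
  have h4 : (0 : ℝ) ≤ (n : ℝ) ^ 4 := by positivity
  have h5 : (ε / 14) ^ 234 * (n : ℝ) ^ 4 ≤ ε ^ 8 / 4096 * (n : ℝ) ^ 4 :=
    mul_le_mul_of_nonneg_right h3 h4
  have h6 : ε ^ 8 / 4096 * (n : ℝ) ^ 4 = (ε ^ 8 * (n : ℝ) ^ 4) / 4096 := by ring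
  rw [h6] at h5
  linarith

end Vale.Agent.Lib.P037.Two
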