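import Vale.Agent.Lib.P037.Two.GammaMain
import Vale.Agent.Lib.P037.Two.EqualRows

open Finset

namespace Vale.Agent.Lib.P037.Two

open Vale.Agent.Results.P037.DiagonalRemoval

theorem removal_diag : Removal diagPat := by
  intro n hn ε h0 h1 A hfar
  exact main_diag hn h0 h1 A hfar

/-- Every `2 × 2` pattern has the removal bound. -/
theorem removal_all (H : Fin 2 → Fin 2 → Bool) : Removal H := by
  have hG := removal_gamma
  have hD := removal_diag
  have hE := removal_eqRows
  have hform : H = ![![H 0 0, H 0 1], ![H 1 0, H 1 1]] := by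
    funext i j
    fin_cases i <;> fin_cases j <;> rfl
  rw [hform]
  generalize H 0 0 = a
  generalize H 0 1 = b
  generalize H 1 0 = c
  generalize H 1 1 = d
  have conv : ∀ P Q : Fin 2 → Fin 2 → Bool, Removal P → (∀ i j, P i j = Q i j) → Removal Q := by
    intro P Q hP hPQ
    have : P = Q := by
      funext i j
      exact hPQ i j
    rwa [← this]
  cases a <;> cases b <;> cases c <;> cases d
  · -- 0 0 / 0 0
    exact conv _ _ (hE false false) (by decide)
  · -- 0 0 / 0 1
    exact conv _ _ hG.comp (by decide)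
  · -- 0 0 / 1 0
    exact conv _ _ hG.rev.trans.comp (by decide)
  · -- 0 0 / 1 1
    exact conv _ _ (hE true false).trans.comp (by decide)
  · -- 0 1 / 0 0
    exact conv _ _ hG.rev.comp (by decide)
  · -- 0 1 / 0 1
    exact conv _ _ (hE false true) (by decide)
  · -- 0 1 / 1 0
    exact conv _ _ hD.comp (by decide)
  · -- 0 1 / 1 1
    exact conv _ _ hG.rev.trans.rev (by decide)
  · -- 1 0 / 0 0
    exact conv _ _ hG.rev.trans.rev.comp (by decide)
  · -- 1 0 / 0 1
    exact conv _ _ hD (by decide)
  · -- 1 0 / 1 0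
    exact conv _ _ (hE true false) (by decide)
  · -- 1 0 / 1 1
    exact conv _ _ hG.rev (by decide)
  · -- 1 1 / 0 0
    exact conv _ _ (hE true false).trans (by decide)
  · -- 1 1 / 0 1
    exact conv _ _ hG.rev.trans (by decide)
  · -- 1 1 / 1 0
    exact conv _ _ hG (by decide)
  · -- 1 1 / 1 1
    exact conv _ _ (hE true true) (by decide)

end Vale.Agent.Lib.P037.Two
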