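import Vale.Agent.Lib.P037.Two.Symm
import Vale.Agent.Lib.P037.Gamma.Param

open Finset

namespace Vale.Agent.Lib.P037.Two

open Vale.Agent.Results.P037.DiagonalRemoval
open Vale.Agent.Lib.P037.Gamma

/-- The pattern `[[1,1],[1,0]]`. -/
def gammaPat : Fin 2 → Fin 2 → Bool := ![![true, true], ![true, false]]

theorem NG_eq_card {n : ℕ} (A : Fin n → Fin n → Bool) :
    NG A = ((univ : Finset ((Fin n × Fin n) × (Fin n × Fin n))).filter
      (fun q => Gam A q.1.1 q.1.2 q.2.1 q.2.2)).card := by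
  rw [Finset.card_filter]
  simp only [Fintype.sum_prod_type]
  unfold NG Cr Yc
  simp only [Finset.card_filter]

theorem NG_le_countCopies {n : ℕ} (A : Fin n → Fin n → Bool) :
    NG A ≤ countCopies gammaPat A := by
  classical
  rw [NG_eq_card]
  unfold countCopies
  apply Finset.card_le_card_of_injOn
    (fun q => ((![q.1.1, q.1.2] : Fin 2 → Fin n), (![q.2.1, q.2.2] : Fin 2 → Fin n)))
  · intro q hq
    have hq' := (Finset.mem_filter.mp (Finset.mem_coe.mp hq)).2
    obtain ⟨h1, h2, e1, e2, e3, e4⟩ := hq'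
    apply Finset.mem_coe.mpr
    rw [mem_copies]
    refine ⟨?_, ?_, ?_⟩
    · intro i j hij
      fin_cases i <;> fin_cases j <;> simp_all
    · intro i j hij
      fin_cases i <;> fin_cases j <;> simp_all
    · intro i j
      fin_cases i <;> fin_cases j <;> simp_all [gammaPat]
  · intro q _ q' _ h
    have h1 := congrArg (fun x => x.1 0) h
    have h2 := congrArg (fun x => x.1 1) h
    have h3 := congrArg (fun x => x.2 0) h
    have h4 := congrArg (fun x => x.2 1) h
    simp only [Matrix.cons_val_zero, Matrix.cons_val_one] at h1 h2 h3 h4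
    exact Prod.ext (Prod.ext h1 h2) (Prod.ext h3 h4)

theorem countCopies_gamma_eq_zero {n : ℕ} (B : Fin n → Fin n → Bool)
    (hB : ∀ r r' c c', ¬ Gam B r r' c c') : countCopies gammaPat B = 0 := by
  classical
  unfold countCopies
  apply Finset.card_eq_zero.mpr
  apply Finset.eq_empty_of_forall_notMem
  intro p hp
  rw [mem_copies] at hp
  obtain ⟨h1, h2, h3⟩ := hp
  apply hB (p.1 0) (p.1 1) (p.2 0) (p.2 1)
  refine ⟨h1 (by simp), h2 (by simp), ?_, ?_, ?_, ?_⟩
  · rw [h3]; rfl
  · rw [h3]; rfl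
  · rw [h3]; rfl
  · rw [h3]; rfl

theorem diffCount_eq_sum {n : ℕ} (A B : Fin n → Fin n → Bool) :
    diffCount A B = ∑ r, rowdiff A B r := by
  unfold diffCount rowdiff
  rw [Finset.card_filter]
  rw [Fintype.sum_prod_type]
  apply Finset.sum_congr rfl
  intro r _
  rw [Finset.card_filter]

/-- The polynomial removal bound for the pattern `[[1,1],[1,0]]`. -/
theorem gamma_bound {n : ℕ} (hn : 0 < n) {ε : ℝ} (h0 : 0 < ε) (h1 : ε < 1)
    (A : Fin n → Fin n → Bool)
    (hfar : ∀ B : Fin n → Fin n → Bool, countCopies gammaPat B = 0 →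
      ε * ((n : ℝ) * n) ≤ (diffCount A B : ℝ)) :
    (ε / 101) ^ 40 * (n : ℝ) ^ 4 ≤ (countCopies gammaPat A : ℝ) := by
  have hnR : (0 : ℝ) < (n : ℝ) := by exact_mod_cast hn
  have hnn : (0 : ℝ) < (n : ℝ) * n := by positivity
  -- the copy count is positive
  have hN1 : 1 ≤ NG A := by
    by_contra hcon
    have hzero : NG A = 0 := by omega
    have hfree : ∀ r r' c c', ¬ Gam A r r' c c' := by
      intro r r' c c' hp
      rw [NG_eq_card] at hzero
      have h3 := Finset.card_eq_zero.mp hzero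
      have h4 : ((r, r'), (c, c')) ∈ (univ : Finset ((Fin n × Fin n) × (Fin n × Fin n))).filter
          (fun q => Gam A q.1.1 q.1.2 q.2.1 q.2.2) := by
        simp only [mem_filter, mem_univ, true_and]
        exact hp
      rw [h3] at h4
      simp at h4
    have h2 := hfar A (countCopies_gamma_eq_zero A hfree)
    have h3 : diffCount A A = 0 := by
      unfold diffCount
      simp
    rw [h3] at h2
    have h4 : 0 < ε * ((n : ℝ) * n) := by positivity
    simp at h2
    linarith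
  -- the parameter
  set K : ℕ := ⌈100 / ε⌉₊ with hK
  have hK1 : 100 / ε ≤ (K : ℝ) := Nat.le_ceil _
  have hK2 : (K : ℝ) < 100 / ε + 1 := Nat.ceil_lt_add_one (by positivity)
  have h13 : (100 : ℝ) < 100 / ε := by
    rw [lt_div_iff₀ h0]
    linarith
  have hK14 : 100 ≤ K := by
    have : (100 : ℝ) < (K : ℝ) := by linarith
    have h5 : 100 < K := by exact_mod_cast this
    omega
  have hK0R : (0 : ℝ) < (K : ℝ) := by linarith
  have hKε : (K : ℝ) ≤ 101 / ε := by
    have : 100 / ε + 1 ≤ 101 / ε := by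
      have h5 : (101 : ℝ) / ε = 100 / ε + 1 / ε := by ring
      rw [h5]
      have h6 : (1 : ℝ) ≤ 1 / ε := by
        rw [le_div_iff₀ h0]
        linarith
      linarith
    linarith
  have hNNR : (NG A : ℝ) ≤ (countCopies gammaPat A : ℝ) := by exact_mod_cast NG_le_countCopies A
  have hmain : (n : ℝ) ^ 4 ≤ (NG A : ℝ) * (K : ℝ) ^ 40 := by
    by_contra hcon
    push Not at hcon
    obtain ⟨B, hBfree, hBham⟩ := gamma_param hn A K hK14 hN1 hcon
    have h2 := hfar B (countCopies_gamma_eq_zero B hBfree)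
    have h3 : (diffCount A B : ℝ) = ∑ r, (rowdiff A B r : ℝ) := by
      rw [diffCount_eq_sum]
      push_cast
      rfl
    rw [h3] at h2
    have h4 := h2.trans hBham
    have h5 : 7 * ((n : ℝ) * n) / (K : ℝ) ≤ 7 * ((n : ℝ) * n) / (100 / ε) :=
      div_le_div_of_nonneg_left (by positivity) (by positivity) hK1
    have h6 : 7 * ((n : ℝ) * n) / (100 / ε) = (7 / 100) * ε * ((n : ℝ) * n) := by
      field_simp
    have h7 : 0 < ε * ((n : ℝ) * n) := by positivity
    nlinarith
  have hεK : ε / 101 ≤ 1 / (K : ℝ) := by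
    rw [div_le_div_iff₀ (by norm_num) hK0R]
    have : (K : ℝ) * ε ≤ 101 := by
      have h5 := mul_le_mul_of_nonneg_right hKε h0.le
      have h6 : 101 / ε * ε = 101 := by field_simp
      linarith
    linarith
  have hpow : (ε / 101) ^ 40 ≤ (1 / (K : ℝ)) ^ 40 :=
    pow_le_pow_left₀ (by positivity) hεK _
  calc (ε / 101) ^ 40 * (n : ℝ) ^ 4 ≤ (1 / (K : ℝ)) ^ 40 * (n : ℝ) ^ 4 :=
        mul_le_mul_of_nonneg_right hpow (by positivity)
    _ ≤ (1 / (K : ℝ)) ^ 40 * ((NG A : ℝ) * (K : ℝ) ^ 40) :=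
        mul_le_mul_of_nonneg_left hmain (by positivity)
    _ = (NG A : ℝ) := by
        field_simp
    _ ≤ _ := hNNR

theorem pow234_le {ε : ℝ} (h0 : 0 < ε) (h1 : ε < 1) : (ε / 14) ^ 234 ≤ (ε / 101) ^ 40 := by
  have e1 : (ε / 14) ^ 234 = ε ^ 234 / 14 ^ 234 := div_pow _ _ _
  have e2 : (ε / 101) ^ 40 = ε ^ 40 / 101 ^ 40 := div_pow _ _ _
  rw [e1, e2]
  apply div_le_div₀ (by positivity) _ (by positivity) (by norm_num)
  · exact pow_le_pow_of_le_one h0.le h1.le (by norm_num)

theorem removal_gamma : Removal gammaPat := by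
  intro n hn ε h0 h1 A hfar
  have h2 := gamma_bound hn h0 h1 A hfar
  have h3 := pow234_le h0 h1
  have hn4 : (n : ℝ) ^ (2 * 2) = (n : ℝ) ^ 4 := by norm_num
  rw [hn4]
  have h4 : (0 : ℝ) ≤ (n : ℝ) ^ 4 := by positivity
  nlinarith

end Vale.Agent.Lib.P037.Two
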