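import Vale.Agent.Results.P037.DiagonalRemoval

open Finset

namespace Vale.Agent.Lib.P037.Two

open Vale.Agent.Results.P037.DiagonalRemoval

/-- The removal bound for a `2 × 2` pattern, in the form used for the symmetry reductions. -/
def Removal (H : Fin 2 → Fin 2 → Bool) : Prop :=
  ∀ (n : ℕ) (_ : 0 < n) (ε : ℝ) (_ : 0 < ε) (_ : ε < 1) (A : Fin n → Fin n → Bool),
    (∀ B : Fin n → Fin n → Bool, countCopies H B = 0 → ε * ((n : ℝ) * n) ≤ (diffCount A B : ℝ)) →
    (ε / 14) ^ 234 * (n : ℝ) ^ (2 * 2) ≤ (countCopies H A : ℝ)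

/-- General transfer along an involution of matrices. -/
theorem Removal.transfer {H H' : Fin 2 → Fin 2 → Bool} (hH : Removal H)
    (φ : ∀ n : ℕ, (Fin n → Fin n → Bool) → (Fin n → Fin n → Bool))
    (hinv : ∀ n A, φ n (φ n A) = A)
    (hcount : ∀ n A, countCopies H' (φ n A) = countCopies H A)
    (hdiff : ∀ n A B, diffCount (φ n A) (φ n B) = diffCount A B) : Removal H' := by
  intro n hn ε h0 h1 A' hfar
  have key := hH n hn ε h0 h1 (φ n A') (by
    intro B hB
    have h2 := hfar (φ n B) (by rw [hcount]; exact hB)
    have h3 := hdiff n (φ n A') B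
    rw [hinv] at h3
    rw [← h3]
    exact h2)
  have h4 := hcount n (φ n A')
  rw [hinv] at h4
  rw [h4]
  exact key

/-- Complement of a pattern. -/
def compP (H : Fin 2 → Fin 2 → Bool) : Fin 2 → Fin 2 → Bool := fun i j => !(H i j)

/-- Transpose of a pattern. -/
def transP (H : Fin 2 → Fin 2 → Bool) : Fin 2 → Fin 2 → Bool := fun i j => H j i

/-- Reversal of the rows of a pattern. -/
def revP (H : Fin 2 → Fin 2 → Bool) : Fin 2 → Fin 2 → Bool := fun i j => H (Fin.rev i) j

theorem mem_copies {k n : ℕ} {H : Fin k → Fin k → Bool} {A : Fin n → Fin n → Bool}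
    {p : (Fin k → Fin n) × (Fin k → Fin n)} :
    p ∈ copies H A ↔ StrictMono p.1 ∧ StrictMono p.2 ∧ ∀ i j, A (p.1 i) (p.2 j) = H i j := by
  unfold copies
  rw [Finset.mem_filter]
  simp

theorem mem_diff {n : ℕ} {A B : Fin n → Fin n → Bool} {q : Fin n × Fin n} :
    q ∈ (univ.filter (fun q : Fin n × Fin n => A q.1 q.2 ≠ B q.1 q.2)) ↔ A q.1 q.2 ≠ B q.1 q.2 := by
  rw [Finset.mem_filter]
  simp

theorem Removal.comp {H : Fin 2 → Fin 2 → Bool} (hH : Removal H) : Removal (compP H) := by
  apply hH.transfer (fun n A r c => !(A r c))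
  · intro n A
    funext r c
    simp
  · intro n A
    unfold countCopies
    congr 1
    ext p
    rw [mem_copies, mem_copies]
    have e : ∀ a b : Bool, ((!a) = !b) ↔ a = b := by decide
    simp only [compP, e]
  · intro n A B
    unfold diffCount
    congr 1
    ext q
    simp only [mem_filter, mem_univ, true_and]
    cases A q.1 q.2 <;> cases B q.1 q.2 <;> simp

theorem Removal.trans {H : Fin 2 → Fin 2 → Bool} (hH : Removal H) : Removal (transP H) := by
  apply hH.transfer (fun n A r c => A c r)
  · intro n A
    rfl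
  · intro n A
    unfold countCopies
    apply Finset.card_bij (fun p _ => (p.2, p.1))
    · intro p hp
      rw [mem_copies] at hp ⊢
      exact ⟨hp.2.1, hp.1, fun i j => hp.2.2 j i⟩
    · intro p _ q _ h
      have h1 := congrArg Prod.fst h
      have h2 := congrArg Prod.snd h
      exact Prod.ext h2 h1
    · intro p hp
      refine ⟨(p.2, p.1), ?_, rfl⟩
      rw [mem_copies] at hp ⊢
      exact ⟨hp.2.1, hp.1, fun i j => hp.2.2 j i⟩
  · intro n A B
    unfold diffCount
    apply Finset.card_bij (fun p _ => (p.2, p.1))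
    · intro p hp
      simp only [mem_filter, mem_univ, true_and] at hp ⊢
      exact hp
    · intro p _ q _ h
      have h1 := congrArg Prod.fst h
      have h2 := congrArg Prod.snd h
      exact Prod.ext h2 h1
    · intro p hp
      refine ⟨(p.2, p.1), ?_, rfl⟩
      simp only [mem_filter, mem_univ, true_and] at hp ⊢
      exact hp

theorem strictMono_rev_comp {k n : ℕ} {f : Fin k → Fin n} (hf : StrictMono f) :
    StrictMono (fun i => Fin.rev (f (Fin.rev i))) := by
  intro i j hij
  apply Fin.rev_lt_rev.mpr
  apply hf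
  exact Fin.rev_lt_rev.mpr hij

theorem Removal.rev {H : Fin 2 → Fin 2 → Bool} (hH : Removal H) : Removal (revP H) := by
  apply hH.transfer (fun n A r c => A (Fin.rev r) c)
  · intro n A
    funext r c
    simp
  · intro n A
    unfold countCopies
    apply Finset.card_bij (fun p _ => ((fun i => Fin.rev (p.1 (Fin.rev i))), p.2))
    · intro p hp
      rw [mem_copies] at hp ⊢
      refine ⟨strictMono_rev_comp hp.1, hp.2.1, fun i j => ?_⟩
      have := hp.2.2 (Fin.rev i) j
      simp only [revP, Fin.rev_rev] at this ⊢
      exact this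
    · intro p _ q _ h
      have h1 := congrArg Prod.fst h
      have h2 := congrArg Prod.snd h
      refine Prod.ext ?_ h2
      funext i
      have h3 := congrFun h1 (Fin.rev i)
      simp only [Fin.rev_rev] at h3
      exact Fin.rev_injective h3
    · intro p hp
      refine ⟨((fun i => Fin.rev (p.1 (Fin.rev i))), p.2), ?_, ?_⟩
      · rw [mem_copies] at hp ⊢
        refine ⟨strictMono_rev_comp hp.1, hp.2.1, fun i j => ?_⟩
        have := hp.2.2 (Fin.rev i) j
        simp only [revP, Fin.rev_rev] at this ⊢
        exact this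
      · apply Prod.ext
        · funext i
          simp
        · rfl
  · intro n A B
    unfold diffCount
    apply Finset.card_bij (fun p _ => (Fin.rev p.1, p.2))
    · intro p hp
      simp only [mem_filter, mem_univ, true_and] at hp ⊢
      exact hp
    · intro p _ q _ h
      have h1 := congrArg Prod.fst h
      have h2 := congrArg Prod.snd h
      exact Prod.ext (Fin.rev_injective h1) h2
    · intro p hp
      refine ⟨(Fin.rev p.1, p.2), ?_, ?_⟩
      · simp only [mem_filter, mem_univ, true_and] at hp ⊢
        simpa using hp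
      · apply Prod.ext
        · simp
        · rfl

end Vale.Agent.Lib.P037.Two
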